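import Mathlib

/-! # P043: product tiles -/

namespace Vale.Agent.P043

open Finset

/-- `T ⊕ F = G`: every element of `G` is `t + f` for exactly one pair `t ∈ T`, `f ∈ F` -/
def Tiling {G : Type*} [AddCommGroup G] (F T : Set G) : Prop :=
  ∀ g, ∃! p : G × G, p.1 ∈ T ∧ p.2 ∈ F ∧ p.1 + p.2 = g

/-- `T` is invariant under a subgroup of finite index -/
def Periodic {G : Type*} [AddCommGroup G] (T : Set G) : Prop :=
  ∃ L : AddSubgroup G, L.FiniteIndex ∧ ∀ h ∈ L, ∀ x, x + h ∈ T ↔ x ∈ T

theorem Tiling.eq {G : Type*} [AddCommGroup G] {F T : Set G} (h : Tiling F T) {t t' f f' : G}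
    (ht : t ∈ T) (ht' : t' ∈ T) (hf : f ∈ F) (hf' : f' ∈ F) (he : t + f = t' + f') :
    t = t' ∧ f = f' := by
  obtain ⟨p, _, hp⟩ := h (t + f)
  have h1 := hp (t, f) ⟨ht, hf, rfl⟩
  have h2 := hp (t', f') ⟨ht', hf', he.symm⟩
  exact ⟨congrArg Prod.fst (h1.trans h2.symm), congrArg Prod.snd (h1.trans h2.symm)⟩

theorem Tiling.ex {G : Type*} [AddCommGroup G] {F T : Set G} (h : Tiling F T) (g : G) :
    ∃ t ∈ T, ∃ f ∈ F, t + f = g := by
  obtain ⟨p, ⟨h1, h2, h3⟩, _⟩ := h g
  exact ⟨p.1, h1, p.2, h2, h3⟩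

theorem Tiling.mk' {G : Type*} [AddCommGroup G] {F T : Set G}
    (h1 : ∀ g, ∃ t ∈ T, ∃ f ∈ F, t + f = g)
    (h2 : ∀ t ∈ T, ∀ t' ∈ T, ∀ f ∈ F, ∀ f' ∈ F, t + f = t' + f' → t = t') : Tiling F T := by
  intro g
  obtain ⟨t, ht, f, hf, he⟩ := h1 g
  refine ⟨(t, f), ⟨ht, hf, he⟩, ?_⟩
  rintro ⟨t', f'⟩ ⟨ht', hf', he'⟩
  have h3 := h2 t' ht' t ht f' hf' f hf (he'.trans he.symm)
  have h4 : t' = t := h3
  subst h4
  have h5 : t' + f' = t' + f := he'.trans he.symm
  rw [add_left_cancel h5]

/-- Newman: every tiling of the integers by a finite set is periodic -/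
theorem newman (A : Finset ℤ) (hA : A.Nonempty) (T : Set ℤ) (h : Tiling (A : Set ℤ) T) :
    ∃ p : ℕ, 0 < p ∧ ∀ x : ℤ, x + p ∈ T ↔ x ∈ T := by
  classical
  obtain ⟨D, hD⟩ : ∃ D : ℕ, (D : ℤ) = A.max' hA - A.min' hA :=
    ⟨(A.max' hA - A.min' hA).toNat, Int.toNat_of_nonneg
      (sub_nonneg.2 (A.min'_le _ (A.max'_mem hA)))⟩
  have key : ∀ a0 ∈ A, ∀ t : ℤ, t ∈ T ↔ ¬ ∃ a ∈ A, a ≠ a0 ∧ t + a0 - a ∈ T := by
    intro a0 ha0 t
    constructor
    · rintro ht ⟨a, ha, hne, hta⟩
      have := h.eq ht hta (Finset.mem_coe.2 ha0) (Finset.mem_coe.2 ha) (by ring)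
      exact hne this.2.symm
    · intro hn
      obtain ⟨s, hs, a, ha, he⟩ := h.ex (t + a0)
      by_cases haa : a = a0
      · subst haa
        have : s = t := by linarith
        rwa [← this]
      · exact absurd ⟨a, Finset.mem_coe.1 ha, haa, by
          have : t + a0 - a = s := by linarith
          rw [this]; exact hs⟩ hn
  obtain ⟨n, m, hnm, hw⟩ := Finite.exists_ne_map_eq_of_infinite
    (fun n : ℕ => fun i : Fin D => ((n : ℤ) + (i : ℕ) ∈ T : Prop))
  wlog hlt : n < m generalizing n m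
  · exact this m n hnm.symm hw.symm (by omega)
  have hbase : ∀ k : ℤ, 0 ≤ k → k < D → ((n : ℤ) + k ∈ T ↔ (m : ℤ) + k ∈ T) := by
    intro k hk0 hkD
    have h1 := congrFun hw ⟨k.toNat, by omega⟩
    have h2 : ((k.toNat : ℕ) : ℤ) = k := Int.toNat_of_nonneg hk0
    simp only [h2] at h1
    exact iff_of_eq h1
  have hfor : ∀ N : ℕ, ∀ k : ℤ, 0 ≤ k → k < N → ((n : ℤ) + k ∈ T ↔ (m : ℤ) + k ∈ T) := by
    intro N
    induction N with
    | zero => intro k h0 h1; exfalso; push_cast at h1; omega
    | succ N ih =>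
      intro k h0 h1
      by_cases hkD : k < D
      · exact hbase k h0 hkD
      · rw [key _ (A.min'_mem hA) ((n : ℤ) + k), key _ (A.min'_mem hA) ((m : ℤ) + k)]
        apply not_congr
        apply exists_congr
        intro a
        apply and_congr_right
        intro ha
        apply and_congr_right
        intro hne
        have ha1 := A.min'_le a ha
        have ha2 := A.le_max' a ha
        have ha3 : A.min' hA < a := lt_of_le_of_ne ha1 hne.symm
        have := ih (k + A.min' hA - a) (by omega) (by push_cast at h1; omega)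
        rw [show (n : ℤ) + k + A.min' hA - a = n + (k + A.min' hA - a) by ring,
          show (m : ℤ) + k + A.min' hA - a = m + (k + A.min' hA - a) by ring]
        exact this
  have hall : ∀ N : ℕ, ∀ k : ℤ, -(N : ℤ) ≤ k → ((n : ℤ) + k ∈ T ↔ (m : ℤ) + k ∈ T) := by
    intro N
    induction N with
    | zero =>
      intro k h0
      exact hfor (k.toNat + 1) k (by simpa using h0) (by push_cast; omega)
    | succ N ih =>
      intro k h0
      by_cases hk : -(N : ℤ) ≤ k
      · exact ih k hk
      · rw [key _ (A.max'_mem hA) ((n : ℤ) + k), key _ (A.max'_mem hA) ((m : ℤ) + k)]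
        apply not_congr
        apply exists_congr
        intro a
        apply and_congr_right
        intro ha
        apply and_congr_right
        intro hne
        have ha1 := A.min'_le a ha
        have ha2 := A.le_max' a ha
        have ha3 : a < A.max' hA := lt_of_le_of_ne ha2 hne
        have := ih (k + A.max' hA - a) (by push_cast at h0; omega)
        rw [show (n : ℤ) + k + A.max' hA - a = n + (k + A.max' hA - a) by ring,
          show (m : ℤ) + k + A.max' hA - a = m + (k + A.max' hA - a) by ring]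
        exact this
  refine ⟨m - n, by omega, fun x => ?_⟩
  have h1 := hall (x - n).natAbs (x - n) (by omega)
  rw [show (n : ℤ) + (x - n) = x by ring] at h1
  have h2 : x + ((m - n : ℕ) : ℤ) = (m : ℤ) + (x - n) := by
    rw [Nat.cast_sub hlt.le]; ring
  rw [h2]
  exact h1.symm

/-- each factor of a product tile is a tile -/
theorem factor {ι : Type} {G : ι → Type} [∀ i, AddCommGroup (G i)] (A : ∀ i, Set (G i))
    (T : Set (∀ i, G i)) (h : Tiling (Set.pi Set.univ A) T) (i : ι) :
    ∃ S : Set (G i), Tiling (A i) S := by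
  classical
  refine ⟨{s | ∃ t ∈ T, (∀ j, j ≠ i → -(t j) ∈ A j) ∧ t i = s}, Tiling.mk' ?_ ?_⟩
  · intro g
    obtain ⟨t, ht, f, hf, he⟩ := h.ex (Pi.single i g)
    refine ⟨t i, ⟨t, ht, fun j hj => ?_, rfl⟩, f i, hf i (Set.mem_univ i), ?_⟩
    · have h1 := congrFun he j
      rw [Pi.add_apply, Pi.single_eq_of_ne hj] at h1
      have h2 : -(t j) = f j := by rw [eq_comm, eq_neg_iff_add_eq_zero, add_comm]; exact h1
      rw [h2]
      exact hf j (Set.mem_univ j)
    · have h1 := congrFun he i
      rwa [Pi.add_apply, Pi.single_eq_same] at h1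
  · rintro _ ⟨t, ht, htj, rfl⟩ _ ⟨t', ht', htj', rfl⟩ f hf f' hf' he
    have hF : Function.update (fun j => -(t j)) i f ∈ Set.pi Set.univ A := by
      intro j _
      by_cases hj : j = i
      · subst hj; rw [Function.update_self]; exact hf
      · rw [Function.update_of_ne hj]; exact htj j hj
    have hF' : Function.update (fun j => -(t' j)) i f' ∈ Set.pi Set.univ A := by
      intro j _
      by_cases hj : j = i
      · subst hj; rw [Function.update_self]; exact hf'
      · rw [Function.update_of_ne hj]; exact htj' j hj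
    have := h.eq ht ht' hF hF' (by
      funext j
      rw [Pi.add_apply, Pi.add_apply]
      by_cases hj : j = i
      · subst hj; rw [Function.update_self, Function.update_self]; exact he
      · rw [Function.update_of_ne hj, Function.update_of_ne hj]; simp)
    rw [this.1]

/-- products of tilings are tilings -/
theorem prod_tiling {ι : Type} {G : ι → Type} [∀ i, AddCommGroup (G i)] (A S : ∀ i, Set (G i))
    (h : ∀ i, Tiling (A i) (S i)) : Tiling (Set.pi Set.univ A) (Set.pi Set.univ S) := by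
  refine Tiling.mk' ?_ ?_
  · intro g
    choose t ht f hf he using fun i => (h i).ex (g i)
    exact ⟨t, fun i _ => ht i, f, fun i _ => hf i, funext he⟩
  · intro t ht t' ht' f hf f' hf' he
    funext i
    exact ((h i).eq (ht i (Set.mem_univ i)) (ht' i (Set.mem_univ i)) (hf i (Set.mem_univ i))
      (hf' i (Set.mem_univ i)) (congrFun he i)).1

/-- products of one-dimensional tiles have periodic tilings -/
theorem product_tiles (d : ℕ) (A : Fin d → Finset ℤ) (hA : ∀ i, (A i).Nonempty)
    (T : Set (Fin d → ℤ)) (h : Tiling (Set.pi Set.univ fun i => (A i : Set ℤ)) T) :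
    ∃ T' : Set (Fin d → ℤ), Tiling (Set.pi Set.univ fun i => (A i : Set ℤ)) T' ∧ Periodic T' := by
  choose S hS using fun i => factor (G := fun _ => ℤ) (fun i => (A i : Set ℤ)) T h i
  choose p hp hper using fun i => newman (A i) (hA i) (S i) (hS i)
  refine ⟨Set.pi Set.univ S, prod_tiling (G := fun _ => ℤ) _ _ hS, ?_⟩
  have hP : 0 < ∏ i, p i := Finset.prod_pos fun i _ => hp i
  have hNe : NeZero (∏ i, p i) := ⟨hP.ne'⟩
  let f : (Fin d → ℤ) →+ (Fin d → ZMod (∏ i, p i)) :=
    { toFun := fun x i => ((x i : ℤ) : ZMod (∏ i, p i))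
      map_zero' := by funext i; simp
      map_add' := fun x y => by funext i; simp }
  have hf : ∀ x i, f x i = ((x i : ℤ) : ZMod (∏ i, p i)) := fun _ _ => rfl
  refine ⟨f.ker, inferInstance, ?_⟩
  intro k hk x
  have hdvd : ∀ i, ∃ c : ℤ, k i = (p i : ℤ) * c := by
    intro i
    have h1 : f k i = 0 := by
      rw [AddMonoidHom.mem_ker] at hk
      rw [hk]; rfl
    rw [hf, ZMod.intCast_zmod_eq_zero_iff_dvd] at h1
    have h2 : ((p i : ℕ) : ℤ) ∣ ((∏ i, p i : ℕ) : ℤ) :=
      Int.natCast_dvd_natCast.2 (Finset.dvd_prod_of_mem p (Finset.mem_univ i))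
    exact h2.trans h1
  have hstep : ∀ i (c : ℤ) (y : ℤ), y + (p i : ℤ) * c ∈ S i ↔ y ∈ S i := by
    intro i c
    induction c using Int.induction_on with
    | zero => intro y; simp
    | succ c ih =>
      intro y
      rw [show y + (p i : ℤ) * ((c : ℤ) + 1) = (y + (p i : ℤ) * c) + p i by ring, hper i]
      exact ih y
    | pred c ih =>
      intro y
      have := hper i (y + (p i : ℤ) * (-(c : ℤ) - 1))
      rw [← this, show y + (p i : ℤ) * (-(c : ℤ) - 1) + p i = y + (p i : ℤ) * (-(c : ℤ)) by ring]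
      exact ih y
  constructor
  · intro hx i _
    have h1 := hx i (Set.mem_univ i)
    obtain ⟨c, hc⟩ := hdvd i
    rw [Pi.add_apply, hc, hstep] at h1
    exact h1
  · intro hx i _
    have h1 := hx i (Set.mem_univ i)
    obtain ⟨c, hc⟩ := hdvd i
    rw [Pi.add_apply, hc, hstep]
    exact h1

end Vale.Agent.P043
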