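import Vale.Agent.P043.Basic

/-! # P043: the tiles satisfying the periodic tiling conjecture are closed under products -/

namespace Vale.Agent.P043

theorem closure_prod {ι : Type} [Finite ι] {G : ι → Type} [∀ i, AddCommGroup (G i)]
    (A : ∀ i, Set (G i)) (hper : ∀ i, (∃ S, Tiling (A i) S) → ∃ S, Tiling (A i) S ∧ Periodic S)
    (T : Set (∀ i, G i)) (h : Tiling (Set.pi Set.univ A) T) :
    ∃ T', Tiling (Set.pi Set.univ A) T' ∧ Periodic T' := by
  choose S hS hP using fun i => hper i (factor A T h i)
  refine ⟨Set.pi Set.univ S, prod_tiling A S hS, ?_⟩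
  choose L hL hinv using hP
  have hfin : ∀ i, Finite (G i ⧸ L i) := fun i =>
    have := hL i
    AddSubgroup.finite_quotient_of_finiteIndex
  let f : (∀ i, G i) →+ (∀ i, G i ⧸ L i) :=
    { toFun := fun x i => QuotientAddGroup.mk' (L i) (x i)
      map_zero' := by funext i; simp
      map_add' := fun x y => by funext i; simp }
  refine ⟨f.ker, inferInstance, ?_⟩
  intro k hk x
  have hkL : ∀ i, k i ∈ L i := by
    intro i
    rw [AddMonoidHom.mem_ker] at hk
    have h1 : QuotientAddGroup.mk' (L i) (k i) = 0 := congrFun hk i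
    exact (QuotientAddGroup.eq_zero_iff (k i)).1 h1
  constructor
  · intro hx i _
    exact (hinv i (k i) (hkL i) (x i)).1 (hx i (Set.mem_univ i))
  · intro hx i _
    exact (hinv i (k i) (hkL i) (x i)).2 (hx i (Set.mem_univ i))

end Vale.Agent.P043
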